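import Mathlib
import Vale.Agent.Lib.P068.Minor

namespace Vale.Agent.Results.P068.FiniteDefect

universe u

/-- The pair `(M, N)` satisfies intersection: some common independent set splits as
`JM ∪ JN` (disjointly) with `cl_M JM ∪ cl_N JN` the whole ground set. -/
def SatisfiesIntersection {α : Type u} (M N : Matroid α) : Prop :=
  ∃ JM JN : Set α, Disjoint JM JN ∧ M.Indep (JM ∪ JN) ∧ N.Indep (JM ∪ JN) ∧
    M.closure JM ∪ N.closure JN = M.E

theorem result :
    (∀ (α : Type u) (M N : Matroid α) (J₀ J₁ F : Set α), M.E = N.E → Disjoint J₀ J₁ →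
      M.Indep (J₀ ∪ J₁) → N.Indep (J₀ ∪ J₁) → F.Finite →
      M.E ⊆ M.closure (J₀ ∪ F) ∪ N.closure (J₁ ∪ F) → SatisfiesIntersection M N) ∧
    (∀ (α : Type u) (M N : Matroid α) (F : Set α), M.E = N.E → F.Finite →
      (SatisfiesIntersection (M.delete F) (N.delete F) ↔ SatisfiesIntersection M N)) ∧
    (∀ (α : Type u) (M N : Matroid α) (F : Set α), M.E = N.E → F.Finite →
      (SatisfiesIntersection (M.contract F) (N.contract F) ↔ SatisfiesIntersection M N)) := by
  refine ⟨?_, ?_, ?_⟩
  · intro α M N J₀ J₁ F hE hd hM hN hF hcov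
    exact Vale.Agent.Lib.P068.intersection_of_finite_defect hE hd hM hN hF hcov
  · intro α M N F hE hF
    exact ⟨fun h => Vale.Agent.Lib.P068.intersection_of_delete hE hF h,
      fun h => Vale.Agent.Lib.P068.delete_of_intersection hE hF h⟩
  · intro α M N F hE hF
    exact ⟨fun h => Vale.Agent.Lib.P068.intersection_of_contract hE hF h,
      fun h => Vale.Agent.Lib.P068.contract_of_intersection hE hF h⟩

end Vale.Agent.Results.P068.FiniteDefect
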