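import Mathlib
import Vale.Agent.Lib.P068.Minor

namespace Vale.Agent.Results.P068.NearlyFree

universe u

/-- The pair `(M, N)` satisfies intersection: some common independent set splits as
`JM ∪ JN` (disjointly) with `cl_M JM ∪ cl_N JN` the whole ground set. -/
def SatisfiesIntersection {α : Type u} (M N : Matroid α) : Prop :=
  ∃ JM JN : Set α, Disjoint JM JN ∧ M.Indep (JM ∪ JN) ∧ N.Indep (JM ∪ JN) ∧
    M.closure JM ∪ N.closure JN = M.E

theorem result (α : Type u) (M N : Matroid α) (hE : M.E = N.E) (I F : Set α)
    (hI : N.Indep I) (hF : F.Finite) (hcov : N.E ⊆ I ∪ N.closure F) :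
    SatisfiesIntersection M N := by
  have hIM : I ⊆ M.E := hE ▸ hI.subset_ground
  obtain ⟨J, hJ⟩ := M.exists_isBasis I hIM
  refine Vale.Agent.Lib.P068.intersection_of_finite_defect (J₀ := J) (J₁ := ∅) (F := F) hE
    (by simp) (by simpa using hJ.indep) (by simpa using hI.subset hJ.subset) hF ?_
  intro e he
  rcases hcov (hE ▸ he) with h | h
  · exact Or.inl (M.closure_subset_closure Set.subset_union_left (hJ.subset_closure h))
  · exact Or.inr (N.closure_subset_closure Set.subset_union_right h)

end Vale.Agent.Results.P068.NearlyFree
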