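import Mathlib
import Vale.Agent.Lib.P068.Defect

namespace Vale.Agent.Results.P068.NoInfiniteCommonIndep

universe u

/-- The pair `(M, N)` satisfies intersection: some common independent set splits as
`JM ∪ JN` (disjointly) with `cl_M JM ∪ cl_N JN` the whole ground set. -/
def SatisfiesIntersection {α : Type u} (M N : Matroid α) : Prop :=
  ∃ JM JN : Set α, Disjoint JM JN ∧ M.Indep (JM ∪ JN) ∧ N.Indep (JM ∪ JN) ∧
    M.closure JM ∪ N.closure JN = M.E

theorem result :
    (∀ (α : Type u) (M N : Matroid α), M.E = N.E →
      (∀ I : Set α, M.Indep I → N.Indep I → I.Finite) → SatisfiesIntersection M N) ∧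
    (∀ (α : Type u) (M N : Matroid α), M.E = N.E → N.RankFinite →
      SatisfiesIntersection M N) ∧
    (∀ (α : Type u) (M N : Matroid α), M.E = N.E → N.dual.RankFinite →
      SatisfiesIntersection M N) := by
  refine ⟨fun α M N hE hfin => Vale.Agent.Lib.P068.intersection_of_finite hE hfin, ?_, ?_⟩
  · intro α M N hE hN
    exact Vale.Agent.Lib.P068.intersection_of_finite hE (fun I _ hI => hI.finite)
  · intro α M N hE hN
    exact Vale.Agent.Lib.P068.intersection_of_dual_rankFinite hE hN

end Vale.Agent.Results.P068.NoInfiniteCommonIndep
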